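import Vale.Agent.P131.Gap

/-! The environment space and the weight potentials. -/

namespace Vale.Agent.P131
open Finset

/-- Environments: one residue per level. -/
abbrev X := (j : ℕ) → ZMod (2 ^ (j + 1))

/-- Location of the drop of level `j`. -/
def loc (j : ℕ) (u : ZMod (2 ^ (j + 1))) : ℤ :=
  if u.val < 2 ^ j then 2 ^ j + (u.val : ℤ) else (u.val : ℤ) - 3 * 2 ^ j

/-- Normalised step at `s`. -/
noncomputable def st (s n : ℤ) : ℝ := (if s ≤ n then 1 else 0) - (if s ≤ 0 then 1 else 0)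

/-- The potential. -/
noncomputable def F (A : ℕ → ℝ) (x : X) (n : ℤ) : ℝ :=
  ∑ j ∈ range (n.natAbs + 1), A j * st (loc j (x j)) n

lemma val_lt' (j : ℕ) (u : ZMod (2 ^ (j + 1))) : u.val < 2 * 2 ^ j := by
  have := ZMod.val_lt u
  have h : 2 ^ (j + 1) = 2 * 2 ^ j := by ring
  omega

lemma loc_pos {j : ℕ} {u : ZMod (2 ^ (j + 1))} (h : u.val < 2 ^ j) :
    (2 : ℤ) ^ j ≤ loc j u ∧ loc j u < 2 * 2 ^ j := by
  have h' : (u.val : ℤ) < 2 ^ j := by exact_mod_cast h
  simp only [loc, if_pos h]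
  constructor
  · have : (0 : ℤ) ≤ u.val := Int.natCast_nonneg _
    linarith
  · linarith

lemma loc_neg {j : ℕ} {u : ZMod (2 ^ (j + 1))} (h : ¬ u.val < 2 ^ j) :
    -(2 * (2 : ℤ) ^ j) ≤ loc j u ∧ loc j u < -2 ^ j := by
  have h1 : (2 : ℤ) ^ j ≤ (u.val : ℤ) := by exact_mod_cast not_lt.1 h
  have h2 : (u.val : ℤ) < 2 * 2 ^ j := by exact_mod_cast val_lt' j u
  simp only [loc, if_neg h]
  constructor <;> linarith

lemma st_mono (s : ℤ) {n n' : ℤ} (h : n ≤ n') : st s n ≤ st s n' := by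
  unfold st
  by_cases h1 : s ≤ n
  · simp [h1, h1.trans h]
  · by_cases h2 : s ≤ n' <;> simp [h1, h2]

lemma st_sub_le (s s' n n' : ℤ) : st s n - st s' n' ≤ 2 := by
  unfold st
  split_ifs <;> norm_num

lemma abs_st_le (s n : ℤ) : |st s n| ≤ 1 := by
  unfold st
  split_ifs <;> norm_num

lemma st_zero {j : ℕ} (u : ZMod (2 ^ (j + 1))) {n : ℤ} (h1 : -2 ^ j ≤ n) (h2 : n < 2 ^ j) :
    st (loc j u) n = 0 := by
  have hp : (0 : ℤ) < 2 ^ j := by positivity
  by_cases h : u.val < 2 ^ j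
  · have := loc_pos h
    unfold st
    rw [if_neg (by linarith), if_neg (by linarith)]; simp
  · have := loc_neg h
    unfold st
    rw [if_pos (by linarith), if_pos (by linarith)]; simp

lemma st_zero' {j : ℕ} (u : ZMod (2 ^ (j + 1))) {n : ℤ} (h : n.natAbs < j) :
    st (loc j u) n = 0 := by
  have h1 : j < 2 ^ j := Nat.lt_two_pow_self
  have h2 : ((n.natAbs : ℕ) : ℤ) < 2 ^ j := by exact_mod_cast h.trans h1
  rw [Int.natCast_natAbs, abs_lt] at h2
  exact st_zero u h2.1.le h2.2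

lemma F_eq (A : ℕ → ℝ) (x : X) (n : ℤ) {L : ℕ} (h : n.natAbs < L) :
    F A x n = ∑ j ∈ range L, A j * st (loc j (x j)) n := by
  unfold F
  refine Finset.sum_subset (Finset.range_subset_range.2 h) fun j _ hj => ?_
  rw [mem_range] at hj
  rw [st_zero' _ (by omega), mul_zero]

lemma F_sub_le {A : ℕ → ℝ} (hA : ∀ j, 0 ≤ A j) (x y : X) (n n' : ℤ) (S : Finset ℕ)
    (h : ∀ j ∉ S, st (loc j (x j)) n ≤ st (loc j (y j)) n') :
    F A x n - F A y n' ≤ ∑ j ∈ S, A j * (st (loc j (x j)) n - st (loc j (y j)) n') := by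
  set L := n.natAbs + n'.natAbs + 1 + S.sup id + 1
  rw [F_eq A x n (L := L) (by omega), F_eq A y n' (L := L) (by omega), ← Finset.sum_sub_distrib]
  have hS : S ⊆ range L := fun j hj => by
    have : j ≤ S.sup id := Finset.le_sup (f := id) hj
    rw [mem_range]; omega
  rw [← Finset.sum_sdiff hS]
  have : ∑ j ∈ range L \ S, (A j * st (loc j (x j)) n - A j * st (loc j (y j)) n') ≤ 0 := by
    refine Finset.sum_nonpos fun j hj => ?_
    have := h j (Finset.mem_sdiff.1 hj).2
    have := mul_le_mul_of_nonneg_left this (hA j)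
    linarith
  simp only [mul_sub]
  linarith

lemma F_sub_le_two {A : ℕ → ℝ} (hA : ∀ j, 0 ≤ A j) (x y : X) (n n' : ℤ) (S : Finset ℕ)
    (h : ∀ j ∉ S, st (loc j (x j)) n ≤ st (loc j (y j)) n') :
    F A x n - F A y n' ≤ ∑ j ∈ S, A j * 2 :=
  (F_sub_le hA x y n n' S h).trans <| Finset.sum_le_sum fun j _ =>
    mul_le_mul_of_nonneg_left (st_sub_le _ _ _ _) (hA j)

lemma measurable_F (A : ℕ → ℝ) (n : ℤ) : Measurable fun x : X => F A x n := by
  unfold F
  refine Finset.measurable_sum _ fun j _ => Measurable.const_mul ?_ _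
  exact (measurable_from_top (f := fun u : ZMod (2 ^ (j + 1)) => st (loc j u) n)).comp
    (measurable_pi_apply j)

lemma measurable_F2 (A : ℕ → ℝ) : Measurable fun p : X × ℤ => F A p.1 p.2 :=
  measurable_from_prod_countable_left fun n => measurable_F A n

/-- In the window of level `l` only lower levels are seen. -/
lemma abs_F_window {A : ℕ → ℝ} (hA : ∀ j, 0 ≤ A j) (x : X) (l : ℕ) {n : ℤ}
    (h0 : st (loc l (x l)) n = 0) (h1 : -(2 * 2 ^ l) ≤ n) (h2 : n < 2 * 2 ^ l) :
    |F A x n| ≤ ∑ j ∈ range l, A j := by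
  have hz : ∀ j, l ≤ j → st (loc j (x j)) n = 0 := by
    intro j hj
    rcases hj.eq_or_lt with rfl | hj
    · exact h0
    · have : (2 : ℤ) ^ (l + 1) ≤ 2 ^ j := pow_le_pow_right₀ (by norm_num) hj
      rw [pow_succ] at this
      exact st_zero _ (by linarith) (by linarith)
  rw [F_eq A x n (L := n.natAbs + 1 + l) (by omega)]
  rw [← Finset.sum_subset (s₁ := range l) (Finset.range_subset_range.2 (by omega)) (fun j _ hj => by
    rw [mem_range] at hj
    rw [hz j (by omega), mul_zero])]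
  refine (Finset.abs_sum_le_sum_abs _ _).trans (Finset.sum_le_sum fun j _ => ?_)
  rw [abs_mul, abs_of_nonneg (hA j)]
  exact mul_le_of_le_one_right (hA j) (abs_st_le _ _)

/-- The flip at level `l`. -/
def flip (l : ℕ) : X := Pi.single l ((2 ^ l : ℕ) : ZMod (2 ^ (l + 1)))

lemma flip_ne {l j : ℕ} (h : j ≠ l) : flip l j = 0 := Pi.single_eq_of_ne h _

lemma val_flip (l : ℕ) (y : X) :
    ((y + flip l) l).val = ((y l).val + 2 ^ l) % (2 * 2 ^ l) := by
  have h2 : (2 : ℕ) ^ l < 2 ^ (l + 1) := Nat.pow_lt_pow_right (by norm_num) (by omega)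
  simp only [Pi.add_apply, flip, Pi.single_eq_same, ZMod.val_add, ZMod.val_natCast,
    Nat.mod_eq_of_lt h2]
  congr 1
  ring

lemma flip_lt_iff (l : ℕ) (y : X) :
    ((y + flip l) l).val < 2 ^ l ↔ ¬ (y l).val < 2 ^ l := by
  rw [val_flip]
  have h := val_lt' l (y l)
  have hp : 0 < 2 ^ l := by positivity
  by_cases h1 : (y l).val < 2 ^ l
  · rw [Nat.mod_eq_of_lt (by omega)]; omega
  · have : ((y l).val + 2 ^ l) % (2 * 2 ^ l) = (y l).val - 2 ^ l := by
      rw [Nat.mod_eq_sub_mod (by omega), Nat.mod_eq_of_lt (by omega)]; omega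
    rw [this]; omega

lemma flip_add_flip (l : ℕ) : flip l + flip l = 0 := by
  funext j
  by_cases h : j = l
  · subst h
    simp only [Pi.add_apply, flip, Pi.single_eq_same, Pi.zero_apply]
    rw [← Nat.cast_add, ← two_mul, mul_comm, ← pow_succ, ZMod.natCast_self]
  · simp [flip_ne h]

lemma tendsto_flip : Filter.Tendsto flip Filter.atTop (nhds 0) := by
  rw [tendsto_pi_nhds]
  intro j
  refine tendsto_const_nhds.congr' ?_
  filter_upwards [Filter.eventually_gt_atTop j] with l hl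
  rw [flip_ne hl.ne]; rfl

/-- The unit shift is harmless away from two residues. -/
lemma st_shift {j : ℕ} (u : ZMod (2 ^ (j + 1))) (h1 : u.val + 1 ≠ 2 ^ j)
    (h2 : u.val + 1 ≠ 2 * 2 ^ j) (n : ℤ) : st (loc j (u + 1)) (n + 1) = st (loc j u) n := by
  have h := val_lt' j u
  have hp : 0 < 2 ^ j := by positivity
  have hv : (u + 1).val = u.val + 1 := by
    have : Fact (1 < 2 ^ (j + 1)) := ⟨by rw [pow_succ]; omega⟩
    have h' : 2 ^ (j + 1) = 2 * 2 ^ j := by ring
    rw [ZMod.val_add, ZMod.val_one, Nat.mod_eq_of_lt]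
    omega
  have hl : loc j (u + 1) = loc j u + 1 := by
    unfold loc
    rw [hv]
    by_cases h3 : u.val < 2 ^ j
    · rw [if_pos h3, if_pos (by omega)]; push_cast; ring
    · rw [if_neg h3, if_neg (by omega)]; push_cast; ring
  have hp' : (0 : ℤ) < 2 ^ j := by positivity
  have hs : loc j u + 1 ≤ 0 ↔ loc j u ≤ 0 := by
    by_cases h3 : u.val < 2 ^ j
    · have := loc_pos h3
      constructor <;> intro <;> linarith
    · have := loc_neg h3
      constructor <;> intro <;> linarith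
  unfold st
  rw [hl]
  simp only [add_le_add_iff_right, hs]

end Vale.Agent.P131
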