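import Vale.Agent.P131.Main

/-! Transport to an arbitrary separable infinite-dimensional Hilbert space. -/

namespace Vale.Agent.P131
open MeasureTheory
open scoped InnerProductSpace

lemma exists_nat_basis (H : Type*) [NormedAddCommGroup H] [InnerProductSpace ℂ H]
    [CompleteSpace H] [TopologicalSpace.SeparableSpace H] (hH : ¬ FiniteDimensional ℂ H) :
    Nonempty (HilbertBasis ℕ ℂ H) := by
  obtain ⟨w, b, hb⟩ := exists_hilbertBasis ℂ H
  have ho := b.orthonormal
  have hc : Countable w := by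
    have hd : Pairwise (Function.onFun Disjoint fun i : w => Metric.ball (b i) (1 / 2)) := by
      intro i j hij
      refine Metric.ball_disjoint_ball ?_
      have h1 : ‖b i - b j‖ ^ 2 = 2 := by
        rw [@norm_sub_sq ℂ, ho.1 i, ho.1 j, ho.2 hij]; norm_num
      rw [dist_eq_norm]
      nlinarith [norm_nonneg (b i - b j)]
    exact Pairwise.countable_of_isOpen_disjoint hd (fun _ => Metric.isOpen_ball)
      fun _ => Metric.nonempty_ball.2 (by norm_num)
  have hi : Infinite w := by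
    by_contra h
    rw [not_infinite_iff_finite] at h
    have := Fintype.ofFinite w
    exact hH (Module.Finite.of_basis b.toOrthonormalBasis.toBasis)
  obtain ⟨e⟩ : Nonempty (ℕ ≃ w) := nonempty_equiv_of_countable
  refine ⟨HilbertBasis.mk (ho.comp e e.injective) ?_⟩
  rw [e.surjective.range_comp]
  exact b.dense_span.ge

theorem model : ∃ T : Lp ℂ 2 nu →L[ℂ] Lp ℂ 2 nu,
    (∀ c : ℂ, T ≠ c • (1 : Lp ℂ 2 nu →L[ℂ] Lp ℂ 2 nu)) ∧
    ∀ M : Submodule ℂ (Lp ℂ 2 nu), IsClosed (M : Set (Lp ℂ 2 nu)) →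
      (∀ S, S * T = T * S → ∀ v ∈ M, S v ∈ M) → M = ⊥ ∨ M = ⊤ := by
  obtain ⟨A, hA, hG⟩ := exists_drops
  obtain ⟨T, hT⟩ := exists_T hA
  exact ⟨T, nonscalar hT, fun M hc hM => transitive hA hG hT hc hM⟩

lemma not_fd {H : Type*} [NormedAddCommGroup H] [InnerProductSpace ℂ H] {T : H →L[ℂ] H}
    (h1 : ∀ c : ℂ, T ≠ c • (1 : H →L[ℂ] H))
    (h2 : ∀ M : Submodule ℂ H, IsClosed (M : Set H) →
      (∀ S, S * T = T * S → ∀ v ∈ M, S v ∈ M) → M = ⊥ ∨ M = ⊤) : ¬ FiniteDimensional ℂ H := by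
  intro hf
  have : Nontrivial H := by
    by_contra h
    rw [not_nontrivial_iff_subsingleton] at h
    exact h1 0 (Subsingleton.elim _ _)
  obtain ⟨c, hc⟩ := Module.End.exists_eigenvalue (T : H →ₗ[ℂ] H)
  rcases h2 (Module.End.eigenspace (T : H →ₗ[ℂ] H) c) (Submodule.closed_of_finiteDimensional _)
    (fun S hS v hv => by
      rw [Module.End.mem_eigenspace_iff] at hv ⊢
      have h3 : S (T v) = T (S v) := congrArg (fun L : H →L[ℂ] H => L v) hS
      have h4 : T v = c • v := hv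
      change T (S v) = _
      rw [← h3, h4, map_smul]) with h | h
  · exact hc h
  · refine h1 c ?_
    ext v
    have : v ∈ Module.End.eigenspace (T : H →ₗ[ℂ] H) c := h ▸ Submodule.mem_top
    exact Module.End.mem_eigenspace_iff.1 this

lemma transport {H K : Type*} [NormedAddCommGroup H] [InnerProductSpace ℂ H]
    [NormedAddCommGroup K] [InnerProductSpace ℂ K] (e : H ≃L[ℂ] K) {T : K →L[ℂ] K}
    (h1 : ∀ c : ℂ, T ≠ c • (1 : K →L[ℂ] K))
    (h2 : ∀ M : Submodule ℂ K, IsClosed (M : Set K) →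
      (∀ S, S * T = T * S → ∀ v ∈ M, S v ∈ M) → M = ⊥ ∨ M = ⊤) :
    ∃ T : H →L[ℂ] H, (∀ c : ℂ, T ≠ c • (1 : H →L[ℂ] H)) ∧
      ∀ M : Submodule ℂ H, IsClosed (M : Set H) →
        (∀ S, S * T = T * S → ∀ v ∈ M, S v ∈ M) → M = ⊥ ∨ M = ⊤ := by
  refine ⟨(e.symm : K →L[ℂ] H) ∘L T ∘L (e : H →L[ℂ] K), fun c hc => h1 c ?_, fun M hc hM => ?_⟩
  · ext v
    have := congrArg (fun L : H →L[ℂ] H => e (L (e.symm v))) hc
    simpa using this
  · have h3 := h2 (M.comap (e.symm : K →ₗ[ℂ] H)) (hc.preimage e.symm.continuous) fun S hS v hv => by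
      have := hM ((e.symm : K →L[ℂ] H) ∘L S ∘L (e : H →L[ℂ] K)) (by
        ext u
        have h3 : S (T (e u)) = T (S (e u)) := congrArg (fun L : K →L[ℂ] K => L (e u)) hS
        simp [h3]) (e.symm v) hv
      simpa using this
    rcases h3 with h | h
    · left
      rw [eq_bot_iff]
      intro v hv
      have : e v ∈ M.comap (e.symm : K →ₗ[ℂ] H) := by simpa using hv
      rw [h, Submodule.mem_bot] at this
      simpa using this
    · right
      rw [eq_top_iff]
      intro v _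
      have : e v ∈ M.comap (e.symm : K →ₗ[ℂ] H) := h ▸ Submodule.mem_top
      simpa using this

theorem final (H : Type*) [NormedAddCommGroup H] [InnerProductSpace ℂ H] [CompleteSpace H]
    [TopologicalSpace.SeparableSpace H] (hH : ¬ FiniteDimensional ℂ H) :
    ∃ T : H →L[ℂ] H, (∀ c : ℂ, T ≠ c • (1 : H →L[ℂ] H)) ∧
      ∀ M : Submodule ℂ H, IsClosed (M : Set H) →
        (∀ S, S * T = T * S → ∀ v ∈ M, S v ∈ M) → M = ⊥ ∨ M = ⊤ := by
  obtain ⟨T, h1, h2⟩ := model
  obtain ⟨b⟩ := exists_nat_basis H hH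
  have : Fact ((2 : ENNReal) ≠ ⊤) := ⟨by simp⟩
  obtain ⟨b'⟩ := exists_nat_basis (Lp ℂ 2 nu) (not_fd h1 h2)
  exact transport (b.repr.trans b'.repr.symm).toContinuousLinearEquiv h1 h2

end Vale.Agent.P131
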