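import Mathlib

/-! Finite-dimensional gap lemma and the choice of the drops. -/

namespace Vale.Agent.P131
open Finset

lemma tri_zero (N : ℕ) (a b : ℕ → ℂ) (m : ℕ) (hm : m < N) (ha : a m ≠ 0)
    (h : ∀ i < N, ∑ n ∈ range (N - i), a n * b (n + i) = 0) : b m = 0 := by
  classical
  have hex : ∃ n, a n ≠ 0 := ⟨m, ha⟩
  set m0 := Nat.find hex with hm0
  have h0 : a m0 ≠ 0 := Nat.find_spec hex
  have hle : m0 ≤ m := Nat.find_min' hex ha
  have hlt : ∀ n < m0, a n = 0 := fun n hn => by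
    have := Nat.find_min hex hn
    simpa using this
  have key : ∀ d k, m0 ≤ k → k < N → N - k ≤ d → b k = 0 := by
    intro d
    induction d with
    | zero => intro k _ h2 h3; omega
    | succ d ih =>
      intro k h1 h2 h3
      have hs := h (k - m0) (by omega)
      rw [Finset.sum_eq_single m0] at hs
      · have : m0 + (k - m0) = k := by omega
        rw [this] at hs
        exact (mul_eq_zero.1 hs).resolve_left h0
      · intro n hn hne
        rw [Finset.mem_range] at hn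
        rcases lt_or_gt_of_ne hne with h4 | h4
        · rw [hlt n h4, zero_mul]
        · rw [ih (n + (k - m0)) (by omega) (by omega) (by omega), mul_zero]
      · intro hn
        rw [Finset.mem_range] at hn
        omega
  exact key N m hle hm (by omega)

lemma gap (N : ℕ) (K δ : ℝ) (hδ : 0 < δ) :
    ∃ η > 0, ∀ a b : ℕ → ℂ, (∀ n, ‖a n‖ ≤ K) → (∀ n, ‖b n‖ ≤ K) → ∀ m < N,
      δ ≤ ‖a m‖ → δ ≤ ‖b m‖ →
      η ≤ ∑ i ∈ range N, ‖∑ n ∈ range (N - i), a n * b (n + i)‖ := by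
  let B : Set (ℕ → ℂ) := Set.pi Set.univ fun _ => Metric.closedBall (0 : ℂ) K
  have hB : IsCompact B := isCompact_univ_pi fun _ => isCompact_closedBall _ _
  let C : Set ((ℕ → ℂ) × (ℕ → ℂ)) :=
    ⋃ m ∈ range N, {p | δ ≤ ‖p.1 m‖ ∧ δ ≤ ‖p.2 m‖}
  have hC : IsClosed C := by
    refine isClosed_biUnion_finset fun m _ => IsClosed.inter ?_ ?_
    · exact isClosed_le (f := fun _ => δ) (g := fun p : (ℕ → ℂ) × (ℕ → ℂ) => ‖p.1 m‖)
        continuous_const (by fun_prop)
    · exact isClosed_le (f := fun _ => δ) (g := fun p : (ℕ → ℂ) × (ℕ → ℂ) => ‖p.2 m‖)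
        continuous_const (by fun_prop)
  have hS : IsCompact ((B ×ˢ B) ∩ C) := (hB.prod hB).inter_right hC
  let Φ : (ℕ → ℂ) × (ℕ → ℂ) → ℝ := fun p =>
    ∑ i ∈ range N, ‖∑ n ∈ range (N - i), p.1 n * p.2 (n + i)‖
  have hΦ : Continuous Φ := by
    refine continuous_finsetSum _ fun i _ => Continuous.norm ?_
    exact continuous_finsetSum _ fun n _ => by fun_prop
  have hpos : ∀ p ∈ (B ×ˢ B) ∩ C, 0 < Φ p := by
    rintro p ⟨-, hp⟩
    simp only [C, Set.mem_iUnion, Set.mem_setOf_eq, mem_range] at hp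
    obtain ⟨m, hm, h1, h2⟩ := hp
    have hnn : 0 ≤ Φ p := Finset.sum_nonneg fun _ _ => norm_nonneg _
    refine lt_of_le_of_ne hnn fun h0 => ?_
    have hz := (Finset.sum_eq_zero_iff_of_nonneg fun _ _ => norm_nonneg _).1 h0.symm
    have := tri_zero N p.1 p.2 m hm (by
      intro h; rw [h, norm_zero] at h1; linarith) (fun i hi => by
      simpa using hz i (mem_range.2 hi))
    rw [this, norm_zero] at h2
    linarith
  obtain ⟨η, hη, hle⟩ := hS.exists_forall_le' hΦ.continuousOn hpos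
  refine ⟨η, hη, fun a b ha hb m hm h1 h2 => hle (a, b) ⟨⟨?_, ?_⟩, ?_⟩⟩
  · intro n _; simpa using ha n
  · intro n _; simpa using hb n
  · simp only [C, Set.mem_iUnion, Set.mem_setOf_eq, mem_range]
    exact ⟨m, hm, h1, h2⟩

/-- The property of level `l`, lower mass `B` and drop `A`. -/
def Good (l : ℕ) (B A : ℝ) : Prop :=
  ∀ a b : ℕ → ℂ, (∀ n, ‖a n‖ ≤ (l + 1) * Real.exp B) → (∀ n, ‖b n‖ ≤ (l + 1) * Real.exp B) →
    ∀ m < 2 ^ (l + 2), Real.exp (-B) / (l + 1) ≤ ‖a m‖ → Real.exp (-B) / (l + 1) ≤ ‖b m‖ →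
      2 ^ (l + 2) * ((l + 1) * Real.exp (-A)) <
        ∑ i ∈ range (2 ^ (l + 2)), ‖∑ n ∈ range (2 ^ (l + 2) - i), a n * b (n + i)‖

lemma exists_good (l : ℕ) (B : ℝ) : ∃ A, 0 ≤ A ∧ Good l B A := by
  obtain ⟨η, hη, h⟩ := gap (2 ^ (l + 2)) ((l + 1) * Real.exp B) (Real.exp (-B) / (l + 1))
    (by positivity)
  have ht : Filter.Tendsto (fun A : ℝ => (2 : ℝ) ^ (l + 2) * ((l + 1) * Real.exp (-A)))
      Filter.atTop (nhds ((2 : ℝ) ^ (l + 2) * ((l + 1) * 0))) :=
    (Real.tendsto_exp_neg_atTop_nhds_zero.const_mul _).const_mul _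
  simp only [mul_zero] at ht
  obtain ⟨A, hA⟩ := ((ht.eventually (gt_mem_nhds hη)).and (Filter.eventually_ge_atTop 0)).exists
  exact ⟨A, hA.2, fun a b ha hb m hm h1 h2 => lt_of_lt_of_le hA.1 (h a b ha hb m hm h1 h2)⟩

lemma exists_drops : ∃ A : ℕ → ℝ, (∀ j, 0 ≤ A j) ∧ ∀ l, Good l (∑ j ∈ range l, A j) (A l) := by
  choose G hG0 hG using exists_good
  let B : ℕ → ℝ := fun n => Nat.rec 0 (fun l b => b + G l b) n
  have hB : ∀ l, ∑ j ∈ range l, G j (B j) = B l := by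
    intro l
    induction l with
    | zero => simp [B]
    | succ l ih => rw [Finset.sum_range_succ, ih]
  exact ⟨fun l => G l (B l), fun l => hG0 _ _, fun l => by rw [hB]; exact hG _ _⟩

end Vale.Agent.P131
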