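import Vale.Agent.P131.Env

/-! The deterministic fibrewise contradiction. -/

namespace Vale.Agent.P131
open Finset Filter

lemma norm_sum_le_of_hasSum_zero {f : ℤ → ℂ} (hf : HasSum f 0) (D : Finset ℤ) {ε : ℝ}
    (h : ∀ t : Finset ℤ, (∀ n ∈ t, n ∉ D) → ∑ n ∈ t, ‖f n‖ ≤ ε) : ‖∑ n ∈ D, f n‖ ≤ ε := by
  have h1 : Tendsto (fun t : Finset ℤ => ‖∑ n ∈ t, f n‖ + ε) atTop (nhds (‖(0 : ℂ)‖ + ε)) :=
    (Tendsto.norm hf).add_const ε
  rw [norm_zero, zero_add] at h1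
  refine ge_of_tendsto h1 ?_
  filter_upwards [eventually_ge_atTop D] with t ht
  have h2 : ∑ n ∈ D, f n = ∑ n ∈ t, f n - ∑ n ∈ t \ D, f n := by
    rw [← Finset.sum_sdiff ht]; ring
  rw [h2]
  refine (norm_sub_le _ _).trans ?_
  gcongr
  exact (norm_sum_le _ _).trans (h _ fun n hn => (Finset.mem_sdiff.1 hn).2)

lemma sum_mul_le {a b : ℤ → ℂ} {K : ℝ} (ha : ∀ s : Finset ℤ, ∑ n ∈ s, ‖a n‖ ^ 2 ≤ K)
    (hb : ∀ s : Finset ℤ, ∑ n ∈ s, ‖b n‖ ^ 2 ≤ K) (k : ℤ) (t : Finset ℤ) :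
    ∑ n ∈ t, ‖b n‖ * ‖a (n + k)‖ ≤ K := by
  have h1 := ha (t.image (· + k))
  rw [Finset.sum_image (fun x _ y _ h => by simpa using h)] at h1
  have h2 := hb t
  have : ∑ n ∈ t, ‖b n‖ * ‖a (n + k)‖ ≤ ∑ n ∈ t, (‖b n‖ ^ 2 + ‖a (n + k)‖ ^ 2) / 2 :=
    Finset.sum_le_sum fun n _ => by nlinarith [sq_nonneg (‖b n‖ - ‖a (n + k)‖)]
  rw [← Finset.sum_div, Finset.sum_add_distrib] at this
  linarith

lemma norm_le_of_sq {a : ℤ → ℂ} {l : ℕ} (ha : ∀ s : Finset ℤ, ∑ n ∈ s, ‖a n‖ ^ 2 ≤ l + 1)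
    (n : ℤ) : ‖a n‖ ≤ l + 1 := by
  have h1 := ha {n}
  rw [Finset.sum_singleton] at h1
  have : (0 : ℝ) ≤ l := Nat.cast_nonneg l
  nlinarith [norm_nonneg (a n)]

lemma outside_le {A : ℕ → ℝ} (hA : ∀ j, 0 ≤ A j) (l : ℕ) (y : X) (hy : (y l).val < 2 ^ l)
    (i : ℕ) (n : ℤ) (hn : ¬ (loc l ((y + flip l) l) + i ≤ n ∧ n < loc l (y l))) :
    F A (y + flip l) (n + -i) - F A y n ≤ -A l := by
  have hx : ¬ ((y + flip l) l).val < 2 ^ l := by rw [flip_lt_iff]; exact not_not.2 hy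
  have h0 := loc_neg hx
  have h1 := loc_pos hy
  have hp : (0 : ℤ) < 2 ^ l := by positivity
  have := F_sub_le hA (y + flip l) y (n + -i) n {l} fun j hj => by
    rw [Finset.mem_singleton] at hj
    rw [Pi.add_apply, flip_ne hj, add_zero]
    exact st_mono _ (by omega)
  rw [Finset.sum_singleton] at this
  refine this.trans ?_
  have h3 : st (loc l ((y + flip l) l)) (n + -i) - st (loc l (y l)) n ≤ -1 := by
    unfold st
    rw [if_pos (show loc l ((y + flip l) l) ≤ 0 by linarith),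
      if_neg (show ¬ loc l (y l) ≤ 0 by linarith)]
    split_ifs with h4 h5 h5
    · norm_num
    · exfalso; apply hn; constructor <;> linarith
    · norm_num
    · norm_num
  nlinarith [hA l]

lemma window_bound {A : ℕ → ℝ} (hA : ∀ j, 0 ≤ A j) (l : ℕ) (y : X) (hy : (y l).val < 2 ^ l)
    {n : ℤ} (h1 : loc l ((y + flip l) l) ≤ n) (h2 : n < loc l (y l)) :
    |F A (y + flip l) n| ≤ ∑ j ∈ range l, A j ∧ |F A y n| ≤ ∑ j ∈ range l, A j := by
  have hx : ¬ ((y + flip l) l).val < 2 ^ l := by rw [flip_lt_iff]; exact not_not.2 hy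
  have h3 := loc_neg hx
  have h4 := loc_pos hy
  have hp : (0 : ℤ) < 2 ^ l := by positivity
  constructor
  · refine abs_F_window hA _ l ?_ (by linarith) (by linarith)
    unfold st
    rw [if_pos h1, if_pos (by linarith)]; simp
  · refine abs_F_window hA _ l ?_ (by linarith) (by linarith)
    unfold st
    rw [if_neg (by linarith), if_neg (by linarith)]; simp

lemma norm_mul_exp (z : ℂ) (t : ℝ) : ‖z * ((Real.exp t : ℝ) : ℂ)‖ = ‖z‖ * Real.exp t := by
  rw [norm_mul, Complex.norm_real, Real.norm_eq_abs, abs_of_pos (Real.exp_pos _)]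

lemma main_sum_le {A : ℕ → ℝ} (hA : ∀ j, 0 ≤ A j) (l : ℕ) (y : X) (hy : (y l).val < 2 ^ l)
    {a b : ℤ → ℂ} (ha : ∀ s : Finset ℤ, ∑ n ∈ s, ‖a n‖ ^ 2 ≤ l + 1)
    (hb : ∀ s : Finset ℤ, ∑ n ∈ s, ‖b n‖ ^ 2 ≤ l + 1) (i : ℕ)
    (h : HasSum (fun n => b n *
      (((Real.exp (F A (y + flip l) (n + -i) - F A y n) : ℝ) : ℂ) * a (n + -i))) 0) :
    ‖∑ n ∈ Ico (loc l ((y + flip l) l) + i) (loc l (y l)), b n *
      (((Real.exp (F A (y + flip l) (n + -i) - F A y n) : ℝ) : ℂ) * a (n + -i))‖ ≤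
      (l + 1) * Real.exp (-A l) := by
  refine norm_sum_le_of_hasSum_zero h _ fun t ht => ?_
  refine le_trans (Finset.sum_le_sum (g := fun n => (‖b n‖ * ‖a (n + -i)‖) * Real.exp (-A l))
    fun n hn => ?_) ?_
  · rw [norm_mul, mul_comm (((Real.exp _ : ℝ) : ℂ)), norm_mul_exp, ← mul_assoc]
    gcongr
    exact outside_le hA l y hy i n (by simpa [Finset.mem_Ico] using ht n hn)
  · rw [← Finset.sum_mul]
    gcongr
    exact sum_mul_le ha hb _ _

lemma reindex (s0 s1 : ℤ) (N i : ℕ) (hN : s1 - s0 ≤ N) (u v : ℤ → ℂ) :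
    ∑ k ∈ range (N - i), (if s0 + (k : ℕ) < s1 then u (s0 + k) else 0) *
      (if s0 + ((k + i : ℕ) : ℤ) < s1 then v (s0 + ((k + i : ℕ) : ℤ)) else 0) =
      ∑ n ∈ Ico (s0 + i) s1, u (n + -i) * v n := by
  symm
  rw [← Finset.sum_filter_add_sum_filter_not (range (N - i))
    (fun k : ℕ => s0 + ((k + i : ℕ) : ℤ) < s1)]
  rw [Finset.sum_eq_zero (s := filter (fun k : ℕ => ¬ s0 + ((k + i : ℕ) : ℤ) < s1) _)
    (fun k hk => by rw [if_neg (Finset.mem_filter.1 hk).2, mul_zero]), add_zero]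
  refine Finset.sum_nbij' (fun n => (n - s0 - i).toNat) (fun k => s0 + ((k + i : ℕ) : ℤ))
    ?_ ?_ ?_ ?_ ?_
  · intro n hn
    simp only [mem_Ico, mem_filter, mem_range] at hn ⊢
    omega
  · intro k hk
    simp only [mem_Ico, mem_filter, mem_range] at hk ⊢
    omega
  · intro n hn
    simp only [mem_Ico] at hn
    omega
  · intro k hk
    simp only [mem_filter, mem_range] at hk
    omega
  · intro n hn
    simp only [mem_Ico] at hn
    have e1 : s0 + ((n - s0 - i).toNat : ℤ) = n + -i := by omega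
    have e2 : s0 + (((n - s0 - i).toNat + i : ℕ) : ℤ) = n := by omega
    rw [e1, e2, if_pos (by omega), if_pos hn.2]

theorem point {A : ℕ → ℝ} (hA : ∀ j, 0 ≤ A j) (l : ℕ) (hG : Good l (∑ j ∈ range l, A j) (A l))
    (y : X) (hy : (y l).val < 2 ^ l) {a b : ℤ → ℂ}
    (ha : ∀ s : Finset ℤ, ∑ n ∈ s, ‖a n‖ ^ 2 ≤ l + 1)
    (hb : ∀ s : Finset ℤ, ∑ n ∈ s, ‖b n‖ ^ 2 ≤ l + 1) (m : ℤ) (hm : m.natAbs < l)
    (ham : 1 / (l + 1 : ℝ) ≤ ‖a m‖) (hbm : 1 / (l + 1 : ℝ) ≤ ‖b m‖)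
    (h : ∀ i : ℕ, HasSum (fun n => b n *
      (((Real.exp (F A (y + flip l) (n + -i) - F A y n) : ℝ) : ℂ) * a (n + -i))) 0) : False := by
  have hx : ¬ ((y + flip l) l).val < 2 ^ l := by rw [flip_lt_iff]; exact not_not.2 hy
  have h3 := loc_neg hx
  have h4 := loc_pos hy
  set s0 := loc l ((y + flip l) l) with hs0
  set s1 := loc l (y l) with hs1
  set B := ∑ j ∈ range l, A j with hB
  have hl : ((m.natAbs : ℕ) : ℤ) < 2 ^ l := by
    exact_mod_cast hm.trans Nat.lt_two_pow_self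
  rw [Int.natCast_natAbs, abs_lt] at hl
  have hN : s1 - s0 ≤ ((2 ^ (l + 2) : ℕ) : ℤ) := by
    push_cast
    have : (2 : ℤ) ^ (l + 2) = 4 * 2 ^ l := by ring
    linarith
  let u : ℤ → ℂ := fun n => a n * ((Real.exp (F A (y + flip l) n) : ℝ) : ℂ)
  let v : ℤ → ℂ := fun n => b n * ((Real.exp (-F A y n) : ℝ) : ℂ)
  have hw := fun n h1 h2 => window_bound hA l y hy (n := n) h1 h2
  have hl0 : (0 : ℝ) < l + 1 := by positivity
  have hm' : s0 + ((m - s0).toNat : ℤ) = m := by omega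
  have key := hG (fun k => if s0 + (k : ℕ) < s1 then u (s0 + k) else 0)
    (fun k => if s0 + (k : ℕ) < s1 then v (s0 + k) else 0) (fun k => by
      by_cases hk : s0 + (k : ℕ) < s1
      · simp only [if_pos hk, u, norm_mul_exp]
        have := (abs_le.1 (hw (s0 + k) (by omega) hk).1).2
        gcongr
        exact norm_le_of_sq ha _
      · simp only [if_neg hk, norm_zero]; positivity) (fun k => by
      by_cases hk : s0 + (k : ℕ) < s1
      · simp only [if_pos hk, v, norm_mul_exp]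
        have := (abs_le.1 (hw (s0 + k) (by omega) hk).2).1
        gcongr
        · exact norm_le_of_sq hb _
        · linarith
      · simp only [if_neg hk, norm_zero]; positivity) (m - s0).toNat (by omega) (by
      simp only [hm', if_pos (show m < s1 by omega), u, norm_mul_exp]
      have := (abs_le.1 (hw m (by omega) (by omega)).1).1
      rw [div_eq_mul_one_div, mul_comm]
      gcongr) (by
      simp only [hm', if_pos (show m < s1 by omega), v, norm_mul_exp]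
      have := (abs_le.1 (hw m (by omega) (by omega)).2).2
      rw [div_eq_mul_one_div, mul_comm]
      gcongr)
  refine absurd key (not_lt.2 ?_)
  refine (Finset.sum_le_card_nsmul _ _ ((l + 1) * Real.exp (-A l)) fun i _ => ?_).trans ?_
  · rw [reindex s0 s1 _ i hN u v]
    refine le_trans (le_of_eq ?_) (main_sum_le hA l y hy ha hb i (h i))
    congr 1
    refine Finset.sum_congr rfl fun n _ => ?_
    simp only [u, v]
    rw [sub_eq_add_neg, Real.exp_add]
    push_cast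
    ring
  · simp

end Vale.Agent.P131
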