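import Vale.Agent.P131.Ops
import Vale.Agent.P131.Point

/-! The commutant of the direct integral is transitive. -/

namespace Vale.Agent.P131
open MeasureTheory Filter
open scoped InnerProductSpace ComplexConjugate ENNReal symmDiff

lemma meas_sec (ξ : Lp ℂ 2 nu) (m : ℤ) : Measurable fun y : X => ξ (y, m) :=
  (Lp.stronglyMeasurable ξ).measurable.comp (measurable_id.prodMk measurable_const)

lemma meas_ne (ξ : Lp ℂ 2 nu) (m : ℤ) : MeasurableSet {y : X | ξ (y, m) ≠ 0} :=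
  ((meas_sec ξ m) (measurableSet_singleton 0)).compl

lemma exists_pos {ξ : Lp ℂ 2 nu} (h : ξ ≠ 0) : ∃ m, mu {y : X | ξ (y, m) ≠ 0} ≠ 0 := by
  by_contra hc
  push Not at hc
  apply h
  rw [Lp.eq_zero_iff_ae_eq_zero]
  have h1 : ∀ᵐ y ∂mu, ∀ m, ξ (y, m) = 0 := by
    rw [ae_all_iff]
    intro m
    rw [ae_iff]
    exact hc m
  refine (Measure.ae_prod_iff_ae_ae (p := fun p => ξ p = 0)
    ((Lp.stronglyMeasurable ξ).measurable (measurableSet_singleton 0))).2 ?_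
  filter_upwards [h1] with y hy
  exact ae_of_all _ hy

lemma ne_zero_of_ae {E E' : Set X} (hE : mu E ≠ 0) (h : ∀ᵐ y ∂mu, y ∈ E → y ∈ E') :
    mu E' ≠ 0 := fun h0 => hE (le_antisymm ((measure_mono_ae h).trans h0.le) zero_le)

lemma move {A : ℕ → ℝ} {T : Lp ℂ 2 nu →L[ℂ] Lp ℂ 2 nu} (hT : IsT A T)
    {M : Submodule ℂ (Lp ℂ 2 nu)} (hM : ∀ S, S * T = T * S → ∀ v ∈ M, S v ∈ M)
    {ξ : Lp ℂ 2 nu} (hξ : ξ ∈ M) (g : X) (k : ℤ) {Y : Set X} (hY : MeasurableSet Y) {C : ℝ}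
    (hC : ∀ y ∈ Y, ∀ n, F A (y + g) (n + k) - F A y n ≤ C) :
    ∃ ξ' ∈ M, ∀ᵐ y ∂mu, ∀ m, y ∈ Y → ξ (y + g, m + k) ≠ 0 → ξ' (y, m) ≠ 0 := by
  obtain ⟨S, h1, hS⟩ := exists_comm hT g k hY hC
  refine ⟨S ξ, hM S h1 ξ hξ, ?_⟩
  filter_upwards [ae_all (hS ξ)] with y hy m h2 h3
  rw [hy m]
  refine mul_ne_zero ?_ h3
  simp only [wt, Set.indicator_of_mem h2]
  exact_mod_cast (Real.exp_pos _).ne'

lemma mu_coord (j : ℕ) (c : ZMod (2 ^ (j + 1))) : mu {y : X | y j = c} ≤ (2⁻¹ : ℝ≥0∞) ^ (j + 1) := by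
  have hm : ∀ c' : ZMod (2 ^ (j + 1)), MeasurableSet ((fun y : X => y j) ⁻¹' {c'}) :=
    fun c' => measurable_pi_apply j (measurableSet_singleton c')
  have h1 : ∀ c' : ZMod (2 ^ (j + 1)), mu ((fun y : X => y j) ⁻¹' {c'}) = mu {y : X | y j = c} := by
    intro c'
    rw [← measure_preimage_add_right mu (Pi.single j (c' - c))]
    congr 1
    ext y
    simp only [Set.mem_preimage, Pi.add_apply, Pi.single_eq_same, Set.mem_singleton_iff,
      Set.mem_setOf_eq]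
    constructor
    · intro h; linear_combination h
    · intro h; linear_combination h
  have h2 := sum_measure_preimage_singleton (μ := mu) Finset.univ (f := fun y : X => y j)
    fun c' _ => hm c'
  simp only [h1, Finset.sum_const, Finset.card_univ, ZMod.card, Finset.coe_univ,
    Set.preimage_univ, measure_univ, nsmul_eq_mul] at h2
  have h3 := ENNReal.eq_inv_of_mul_eq_one_left (by rw [mul_comm]; exact h2)
  rw [h3, ← ENNReal.inv_pow]
  simp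

/-- Environments that see no exceptional residue from level `J` on. -/
def Yg (J : ℕ) : Set X := {y | ∀ j, J ≤ j → (y j).val + 1 ≠ 2 ^ j ∧ (y j).val + 1 ≠ 2 * 2 ^ j}

lemma meas_Yg (J : ℕ) : MeasurableSet (Yg J) := by
  unfold Yg
  rw [Set.setOf_forall]
  refine MeasurableSet.iInter fun j => ?_
  have h : MeasurableSet {u : ZMod (2 ^ (j + 1)) |
    J ≤ j → u.val + 1 ≠ 2 ^ j ∧ u.val + 1 ≠ 2 * 2 ^ j} := MeasurableSpace.measurableSet_top
  exact measurable_pi_apply (X := fun j : ℕ => ZMod (2 ^ (j + 1))) j h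

lemma ae_Yg : ∀ᵐ y ∂mu, ∃ J, y ∈ Yg J := by
  let s : ℕ → Set X := fun j => {y | (y j).val + 1 = 2 ^ j ∨ (y j).val + 1 = 2 * 2 ^ j}
  have hs : ∀ j, mu (s j) ≤ 2 * (2⁻¹ : ℝ≥0∞) ^ (j + 1) := by
    intro j
    have : s j ⊆ {y : X | y j = ((2 ^ j - 1 : ℕ) : ZMod (2 ^ (j + 1)))} ∪
        {y : X | y j = ((2 * 2 ^ j - 1 : ℕ) : ZMod (2 ^ (j + 1)))} := by
      rintro y (h | h)
      · left
        change y j = _
        rw [← ZMod.natCast_zmod_val (y j)]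
        congr 1; omega
      · right
        change y j = _
        rw [← ZMod.natCast_zmod_val (y j)]
        congr 1; omega
    refine (measure_mono this).trans ((measure_union_le _ _).trans ?_)
    exact (add_le_add (mu_coord _ _) (mu_coord _ _)).trans (two_mul _).ge
  have hsum : ∑' j, mu (s j) ≠ ∞ := by
    refine ne_top_of_le_ne_top ?_ (ENNReal.tsum_le_tsum hs)
    rw [ENNReal.tsum_mul_left, ENNReal.tsum_geometric_add_one]
    refine ENNReal.mul_ne_top (by simp) (ENNReal.mul_ne_top (by simp) (by simp))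
  filter_upwards [ae_finite_setOf_mem hsum] with y hy
  obtain ⟨J, hJ⟩ := hy.bddAbove
  refine ⟨J + 1, fun j hj => ?_⟩
  have : y ∉ s j := fun h => by
    have := hJ (show j ∈ {i | y ∈ s i} from h)
    omega
  simpa [s, not_or] using this

lemma exists_inter_ne {ι : Type*} [Countable ι] {E : Set X} (hE : mu E ≠ 0) {Y : ι → Set X}
    (h : ∀ᵐ y ∂mu, y ∈ E → ∃ i, y ∈ Y i) : ∃ i, mu (Y i) ≠ 0 := by
  by_contra hc
  push Not at hc
  refine ne_zero_of_ae hE (E' := ⋃ i, Y i) ?_ (measure_iUnion_null hc)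
  filter_upwards [h] with y hy hyE
  exact Set.mem_iUnion.2 (hy hyE)

lemma all_levels {A : ℕ → ℝ} (hA : ∀ j, 0 ≤ A j) {T : Lp ℂ 2 nu →L[ℂ] Lp ℂ 2 nu} (hT : IsT A T)
    {M : Submodule ℂ (Lp ℂ 2 nu)} (hM : ∀ S, S * T = T * S → ∀ v ∈ M, S v ∈ M) (hne : M ≠ ⊥)
    (m : ℤ) : ∃ ξ ∈ M, mu {y : X | ξ (y, m) ≠ 0} ≠ 0 := by
  obtain ⟨ξ0, h0, h1⟩ := (Submodule.ne_bot_iff M).1 hne
  obtain ⟨m0, hm0⟩ := exists_pos h1
  induction m using Int.inductionOn' (b := m0) with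
  | zero => exact ⟨ξ0, h0, hm0⟩
  | succ k _ ih =>
    obtain ⟨ξ, hξ, hE⟩ := ih
    obtain ⟨ξ', h2, h3⟩ := move hT hM hξ 0 (-1) MeasurableSet.univ (C := 0) fun y _ n => by
      simpa using F_sub_le_two hA (y + 0) y (n + -1) n ∅ fun j _ => by
        rw [add_zero]; exact st_mono _ (by omega)
    refine ⟨ξ', h2, ne_zero_of_ae hE ?_⟩
    filter_upwards [h3] with y hy h4
    refine hy (k + 1) trivial ?_
    simpa using h4
  | pred k _ ih =>
    obtain ⟨ξ, hξ, hE⟩ := ih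
    rw [← measure_preimage_add_right mu (1 : X)] at hE
    obtain ⟨J, hJ⟩ := exists_inter_ne hE
      (Y := fun J => ((fun y => y + 1) ⁻¹' {y : X | ξ (y, k) ≠ 0}) ∩ Yg J) (by
        filter_upwards [ae_Yg] with y hy h4
        obtain ⟨J, hJ⟩ := hy
        exact ⟨J, h4, hJ⟩)
    obtain ⟨ξ', h2, h3⟩ := move hT hM hξ 1 1 (meas_Yg J) fun y hy n =>
      F_sub_le_two hA (y + 1) y (n + 1) n (Finset.range J) fun j hj => by
        rw [Finset.mem_range, not_lt] at hj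
        exact (st_shift _ (hy j hj).1 (hy j hj).2 n).le
    refine ⟨ξ', h2, ne_zero_of_ae hJ ?_⟩
    filter_upwards [h3] with y hy h4
    refine hy (k - 1) h4.2 ?_
    simpa using h4.1

lemma align {E E' : Set X} (hE : MeasurableSet E) (h : mu E ≠ 0) (h' : mu E' ≠ 0) :
    ∃ f : Π₀ j : ℕ, ZMod (2 ^ (j + 1)), mu (E' ∩ {y | y + (f : X) ∈ E}) ≠ 0 := by
  let U : Set X := ⋃ f : Π₀ j : ℕ, ZMod (2 ^ (j + 1)), {y | y + (f : X) ∈ E}
  have hU : MeasurableSet U := MeasurableSet.iUnion fun f => measurable_add_const _ hE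
  have hd : Dense {g : X | (g +ᵥ ·) ⁻¹' U = U} := by
    intro g
    have ht : Tendsto (fun J => ((DFinsupp.mk (Finset.range J) (fun i => g i) :
        Π₀ j : ℕ, ZMod (2 ^ (j + 1))) : X)) atTop (nhds g) := by
      rw [tendsto_pi_nhds]
      intro j
      refine tendsto_const_nhds.congr' ?_
      filter_upwards [eventually_gt_atTop j] with J hJ
      rw [DFinsupp.mk_apply, dif_pos (Finset.mem_range.2 hJ)]
    refine mem_closure_of_tendsto ht (Eventually.of_forall fun J => ?_)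
    generalize (DFinsupp.mk (Finset.range J) (fun i => g i) : Π₀ j : ℕ, ZMod (2 ^ (j + 1))) = f0
    ext y
    simp only [U, Set.mem_preimage, vadd_eq_add, Set.mem_iUnion, Set.mem_setOf_eq]
    constructor
    · rintro ⟨f, hf⟩
      refine ⟨f0 + f, ?_⟩
      convert hf using 1
      rw [DFinsupp.coe_add]; abel
    · rintro ⟨f, hf⟩
      refine ⟨f - f0, ?_⟩
      convert hf using 1
      rw [DFinsupp.coe_sub]; abel
  have hc := aeconst_of_dense_setOfPred_preimage_vadd_eq (μ := mu) hU.nullMeasurableSet hd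
  rcases eventuallyConst_set.1 hc with h1 | h1
  · refine exists_inter_ne h' ?_
    filter_upwards [h1] with y hy h2
    obtain ⟨f, hf⟩ := Set.mem_iUnion.1 hy
    exact ⟨f, h2, hf⟩
  · exfalso
    refine ne_zero_of_ae h (E' := ∅) ?_ measure_empty
    filter_upwards [h1] with y hy h2
    exact hy (Set.mem_iUnion.2 ⟨0, by simpa using h2⟩)

lemma flip_pos {E : Set X} (hE : MeasurableSet E) (h : mu E ≠ 0) :
    ∀ᶠ l in atTop, mu {y | y ∈ E ∧ y + flip l ∈ E ∧ (y l).val < 2 ^ l} ≠ 0 := by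
  let f : C(X × X, X) := ⟨fun p => p.2 + p.1, by fun_prop⟩
  have ht : Tendsto (fun l => f.curry (flip l)) atTop (nhds (f.curry 0)) :=
    (f.curry.continuous.tendsto 0).comp tendsto_flip
  have h1 := tendsto_measure_symmDiff_preimage_nhds_zero (μ := mu) (ν := mu) ht
    (Eventually.of_forall fun l => measurePreserving_add_right mu (flip l))
    (measurePreserving_add_right mu 0) hE.nullMeasurableSet (measure_ne_top _ _)
  filter_upwards [h1.eventually (gt_mem_nhds (pos_iff_ne_zero.2 h))] with l hl h0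
  have h2 : mu {y | y ∈ E ∧ y + flip l ∈ E ∧ ¬ (y l).val < 2 ^ l} = 0 := by
    rw [← measure_preimage_add_right mu (flip l)] at h0
    refine measure_mono_null (fun y hy => ?_) h0
    refine ⟨hy.2.1, ?_, (flip_lt_iff l y).2 hy.2.2⟩
    rw [add_assoc, flip_add_flip, add_zero]
    exact hy.1
  refine absurd hl (not_lt.2 ?_)
  refine measure_mono_ae ?_
  filter_upwards [measure_eq_zero_iff_ae_notMem.1 h0, measure_eq_zero_iff_ae_notMem.1 h2]
    with y h3 h4 h5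
  refine Set.mem_symmDiff.2 (Or.inr ⟨?_, fun h6 => ?_⟩)
  · change y + 0 ∈ E
    rwa [add_zero]
  · by_cases h7 : (y l).val < 2 ^ l
    · exact h3 ⟨h5, h6, h7⟩
    · exact h4 ⟨h5, h6, h7⟩

lemma ae_bdd (ξ : Lp ℂ 2 nu) :
    ∀ᵐ y ∂mu, ∃ K : ℝ, ∀ s : Finset ℤ, ∑ n ∈ s, ‖ξ (y, n)‖ ^ 2 ≤ K := by
  have h1 : Integrable (fun p => ‖ξ p‖ ^ 2) nu :=
    (memLp_two_iff_integrable_sq_norm (Lp.memLp ξ).1).1 (Lp.memLp ξ)
  filter_upwards [h1.prod_right_ae] with y hy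
  have h2 : Summable fun n => ‖ξ (y, n)‖ ^ 2 := (integrable_count_iff.1 hy).of_norm
  exact ⟨_, fun s => h2.sum_le_tsum s fun _ _ => by positivity⟩

/-- The good set of size `t`. -/
def Eg (ξ ζ : Lp ℂ 2 nu) (m : ℤ) (t : ℕ) : Set X :=
  {y | 1 / (t + 1 : ℝ) ≤ ‖ξ (y, m)‖ ∧ 1 / (t + 1 : ℝ) ≤ ‖ζ (y, m)‖ ∧
    (∀ s : Finset ℤ, ∑ n ∈ s, ‖ξ (y, n)‖ ^ 2 ≤ t + 1) ∧
    (∀ s : Finset ℤ, ∑ n ∈ s, ‖ζ (y, n)‖ ^ 2 ≤ t + 1)}

lemma meas_Eg (ξ ζ : Lp ℂ 2 nu) (m : ℤ) (t : ℕ) : MeasurableSet (Eg ξ ζ m t) := by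
  have h : ∀ η : Lp ℂ 2 nu,
      MeasurableSet {y : X | ∀ s : Finset ℤ, ∑ n ∈ s, ‖η (y, n)‖ ^ 2 ≤ (t + 1 : ℝ)} := by
    intro η
    rw [Set.setOf_forall]
    exact MeasurableSet.iInter fun s => measurableSet_le
      (Finset.measurable_sum _ fun n _ => (meas_sec η n).norm.pow_const 2) measurable_const
  exact (measurableSet_le measurable_const (meas_sec ξ m).norm).inter
    ((measurableSet_le measurable_const (meas_sec ζ m).norm).inter ((h ξ).inter (h ζ)))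

lemma Eg_mono (ξ ζ : Lp ℂ 2 nu) (m : ℤ) {t l : ℕ} (h : t ≤ l) : Eg ξ ζ m t ⊆ Eg ξ ζ m l := by
  have h1 : (t + 1 : ℝ) ≤ l + 1 := by exact_mod_cast Nat.succ_le_succ h
  have h2 : 1 / (l + 1 : ℝ) ≤ 1 / (t + 1 : ℝ) := one_div_le_one_div_of_le (by positivity) h1
  exact fun y hy => ⟨h2.trans hy.1, h2.trans hy.2.1, fun s => (hy.2.2.1 s).trans h1,
    fun s => (hy.2.2.2 s).trans h1⟩

lemma exists_Eg {ξ ζ : Lp ℂ 2 nu} {m : ℤ}
    (h : mu ({y : X | ζ (y, m) ≠ 0} ∩ {y : X | ξ (y, m) ≠ 0}) ≠ 0) :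
    ∃ t, mu (Eg ξ ζ m t) ≠ 0 := by
  refine exists_inter_ne h ?_
  filter_upwards [ae_bdd ξ, ae_bdd ζ] with y ⟨K1, h1⟩ ⟨K2, h2⟩ h3
  obtain ⟨t1, e1⟩ := exists_nat_one_div_lt (norm_pos_iff.2 h3.2)
  obtain ⟨t2, e2⟩ := exists_nat_one_div_lt (norm_pos_iff.2 h3.1)
  obtain ⟨t3, e3⟩ := exists_nat_ge (max K1 K2)
  have c1 : (0 : ℝ) ≤ t1 := Nat.cast_nonneg _
  have c2 : (0 : ℝ) ≤ t2 := Nat.cast_nonneg _
  have c3 : (0 : ℝ) ≤ t3 := Nat.cast_nonneg _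
  have k1 : 1 / ((t1 + t2 + t3 : ℕ) + 1 : ℝ) ≤ 1 / (t1 + 1 : ℝ) :=
    one_div_le_one_div_of_le (by positivity) (by push_cast; linarith)
  have k2 : 1 / ((t1 + t2 + t3 : ℕ) + 1 : ℝ) ≤ 1 / (t2 + 1 : ℝ) :=
    one_div_le_one_div_of_le (by positivity) (by push_cast; linarith)
  have k3 : max K1 K2 ≤ ((t1 + t2 + t3 : ℕ) + 1 : ℝ) := by
    push_cast; linarith
  exact ⟨t1 + t2 + t3, k1.trans e1.le, k2.trans e2.le,
    fun s => (h1 s).trans ((le_max_left _ _).trans k3),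
    fun s => (h2 s).trans ((le_max_right _ _).trans k3)⟩

lemma clash {A : ℕ → ℝ} (hA : ∀ j, 0 ≤ A j)
    (hG : ∀ l, Good l (∑ j ∈ Finset.range l, A j) (A l))
    {T : Lp ℂ 2 nu →L[ℂ] Lp ℂ 2 nu} (hT : IsT A T)
    {M : Submodule ℂ (Lp ℂ 2 nu)} (hM : ∀ S, S * T = T * S → ∀ v ∈ M, S v ∈ M)
    {ξ ζ : Lp ℂ 2 nu} (hξ : ξ ∈ M) (hζ : ζ ∈ Mᗮ) {m : ℤ}
    (h : mu ({y : X | ζ (y, m) ≠ 0} ∩ {y : X | ξ (y, m) ≠ 0}) ≠ 0) : False := by
  obtain ⟨t, ht⟩ := exists_Eg h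
  obtain ⟨l, h1, h2, h3⟩ := ((flip_pos (meas_Eg ξ ζ m t) ht).and
    ((eventually_ge_atTop t).and (eventually_gt_atTop m.natAbs))).exists
  have h4 : ∀ᵐ y ∂mu, ∀ i : ℕ, HasSum (fun n => conj (ζ (y, n)) *
      (((Real.exp (F A (y + flip l) (n + -i) - F A y n) : ℝ) : ℂ) * ξ (y + flip l, n + -i))) 0 := by
    rw [ae_all_iff]
    intro i
    refine orth hT hM hξ hζ (flip l) (-i) fun y n =>
      F_sub_le_two hA (y + flip l) y (n + -i) n {l} fun j hj => ?_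
    rw [Finset.mem_singleton] at hj
    rw [Pi.add_apply, flip_ne hj, add_zero]
    exact st_mono _ (by omega)
  refine ne_zero_of_ae h1 (E' := ∅) ?_ measure_empty
  filter_upwards [h4] with y hy h5
  have e1 := Eg_mono ξ ζ m h2 h5.1
  have e2 := Eg_mono ξ ζ m h2 h5.2.1
  exact point hA l (hG l) y h5.2.2 (a := fun n => ξ (y + flip l, n))
    (b := fun n => conj (ζ (y, n))) e2.2.2.1 (by simpa using e1.2.2.2) m h3 e2.1
    (by simpa using e1.2.1) hy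

theorem transitive {A : ℕ → ℝ} (hA : ∀ j, 0 ≤ A j)
    (hG : ∀ l, Good l (∑ j ∈ Finset.range l, A j) (A l))
    {T : Lp ℂ 2 nu →L[ℂ] Lp ℂ 2 nu} (hT : IsT A T)
    {M : Submodule ℂ (Lp ℂ 2 nu)} (hc : IsClosed (M : Set (Lp ℂ 2 nu)))
    (hM : ∀ S, S * T = T * S → ∀ v ∈ M, S v ∈ M) : M = ⊥ ∨ M = ⊤ := by
  by_contra hcon
  push Not at hcon
  have : CompleteSpace M := hc.completeSpace_coe
  have h1 : Mᗮ ≠ ⊥ := fun h => hcon.2 (Submodule.orthogonal_eq_bot_iff.1 h)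
  obtain ⟨ζ, hζ, hζ0⟩ := (Submodule.ne_bot_iff _).1 h1
  obtain ⟨m, hm⟩ := exists_pos hζ0
  obtain ⟨ξ, hξ, hE⟩ := all_levels hA hT hM hcon.1 m
  obtain ⟨f, hf⟩ := align (meas_ne ξ m) hE hm
  obtain ⟨ξ', h2, h3⟩ := move hT hM hξ (f : X) 0 MeasurableSet.univ fun y _ n =>
    F_sub_le_two hA (y + f) y (n + 0) n f.support fun j hj => by
      rw [DFinsupp.notMem_support_iff] at hj
      rw [Pi.add_apply, hj, add_zero, add_zero]
  refine clash hA hG hT hM h2 hζ (m := m) (ne_zero_of_ae hf ?_)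
  filter_upwards [h3] with y hy h4
  exact ⟨h4.1, hy m trivial (by simpa using h4.2)⟩

theorem nonscalar {A : ℕ → ℝ} {T : Lp ℂ 2 nu →L[ℂ] Lp ℂ 2 nu} (hT : IsT A T) (c : ℂ) :
    T ≠ c • (1 : Lp ℂ 2 nu →L[ℂ] Lp ℂ 2 nu) := by
  intro h
  have hs : MeasurableSet ((Set.univ : Set X) ×ˢ ({0} : Set ℤ)) :=
    MeasurableSet.univ.prod (measurableSet_singleton 0)
  have hf : nu ((Set.univ : Set X) ×ˢ ({0} : Set ℤ)) ≠ ∞ := by
    simp [nu, Measure.prod_prod]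
  let ξ : Lp ℂ 2 nu := indicatorConstLp 2 hs hf (1 : ℂ)
  have h1 : ξ =ᵐ[nu] _ := indicatorConstLp_coeFn
  have h2 := hT ξ
  rw [h] at h2
  have h3 : (c • (1 : Lp ℂ 2 nu →L[ℂ] Lp ℂ 2 nu)) ξ = c • ξ := rfl
  rw [h3] at h2
  obtain ⟨y, e1, e2, e3⟩ :=
    ((ae_all h1).and ((ae_all h2).and (ae_all (Lp.coeFn_smul c ξ)))).exists
  have e4 := e2 1
  rw [e3 1] at e4
  simp only [Pi.smul_apply, Ps, add_zero, add_neg_cancel, e1, wt] at e4
  simp at e4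
  exact Complex.exp_ne_zero _ e4.symm

end Vale.Agent.P131
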