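import Vale.Agent.P131.Env

/-! Weighted composition operators and the fibrewise orthogonality principle. -/

namespace Vale.Agent.P131
open MeasureTheory Filter
open scoped InnerProductSpace ComplexConjugate

section general
variable {Ω : Type*} [MeasurableSpace Ω] {ν : Measure Ω}

lemma memLp_wc {Ψ : Ω → Ω} (hΨ : MeasurePreserving Ψ ν ν) {h : Ω → ℂ} (hm : Measurable h)
    {C : ℝ} (hC : ∀ p, ‖h p‖ ≤ C) (ξ : Lp ℂ 2 ν) :
    MemLp (fun p => h p * ξ (Ψ p)) 2 ν := by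
  have h1 : MemLp (fun p => ξ (Ψ p)) 2 ν := (Lp.memLp ξ).comp_measurePreserving hΨ
  refine MemLp.of_le_mul (c := C) h1 (hm.aestronglyMeasurable.mul h1.1) (ae_of_all _ fun p => ?_)
  rw [norm_mul]
  exact mul_le_mul_of_nonneg_right (hC p) (norm_nonneg _)

lemma exists_op {Ψ : Ω → Ω} (hΨ : MeasurePreserving Ψ ν ν) {h : Ω → ℂ} (hm : Measurable h)
    {C : ℝ} (hC : ∀ p, ‖h p‖ ≤ C) :
    ∃ S : Lp ℂ 2 ν →L[ℂ] Lp ℂ 2 ν, ∀ ξ, S ξ =ᵐ[ν] fun p => h p * ξ (Ψ p) := by
  let L : Lp ℂ 2 ν →ₗ[ℂ] Lp ℂ 2 ν :=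
    { toFun := fun ξ => (memLp_wc hΨ hm hC ξ).toLp _
      map_add' := fun ξ ζ => by
        apply Lp.ext
        have h1 := hΨ.quasiMeasurePreserving.ae_eq_comp (Lp.coeFn_add ξ ζ)
        filter_upwards [(memLp_wc hΨ hm hC (ξ + ζ)).coeFn_toLp, (memLp_wc hΨ hm hC ξ).coeFn_toLp,
          (memLp_wc hΨ hm hC ζ).coeFn_toLp, Lp.coeFn_add ((memLp_wc hΨ hm hC ξ).toLp _)
            ((memLp_wc hΨ hm hC ζ).toLp _), h1] with p e1 e2 e3 e4 e5
        simp only [Function.comp, Pi.add_apply] at e5 e4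
        rw [e1, e4, e2, e3, e5, mul_add]
      map_smul' := fun c ξ => by
        apply Lp.ext
        have h1 := hΨ.quasiMeasurePreserving.ae_eq_comp (Lp.coeFn_smul c ξ)
        filter_upwards [(memLp_wc hΨ hm hC (c • ξ)).coeFn_toLp, (memLp_wc hΨ hm hC ξ).coeFn_toLp,
          Lp.coeFn_smul c ((memLp_wc hΨ hm hC ξ).toLp _), h1] with p e1 e2 e4 e5
        simp only [Function.comp, Pi.smul_apply, smul_eq_mul] at e5 e4
        rw [RingHom.id_apply, e1, e4, e2, e5]; ring }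
  have hL : ∀ ξ, L ξ =ᵐ[ν] fun p => h p * ξ (Ψ p) := fun ξ => (memLp_wc hΨ hm hC ξ).coeFn_toLp
  refine ⟨L.mkContinuous |C| fun ξ => ?_, hL⟩
  have h2 : ‖Lp.compMeasurePreserving Ψ hΨ ξ‖ = ‖ξ‖ := Lp.norm_compMeasurePreserving ξ hΨ
  rw [← h2]
  refine Lp.norm_le_mul_norm_of_ae_le_mul ?_
  filter_upwards [hL ξ, Lp.coeFn_compMeasurePreserving ξ hΨ] with p e1 e2
  rw [e1, e2, norm_mul]
  exact mul_le_mul_of_nonneg_right ((hC p).trans (le_abs_self C)) (norm_nonneg _)

end general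

instance (n : ℕ) : IsTopologicalAddGroup (ZMod n) where
  continuous_add := continuous_of_discreteTopology
  continuous_neg := continuous_of_discreteTopology

instance (n : ℕ) : BorelSpace (ZMod n) := DiscreteMeasurableSpace.toBorelSpace

/-- Haar probability measure on environments. -/
noncomputable def mu : Measure X := Measure.addHaarMeasure ⊤

instance : Measure.IsAddHaarMeasure mu := by unfold mu; infer_instance

instance : IsProbabilityMeasure mu :=
  ⟨by have := Measure.addHaarMeasure_self (K₀ := (⊤ : TopologicalSpace.PositiveCompacts X))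
      simpa [mu] using this⟩

instance : mu.Regular := by unfold mu; infer_instance

/-- The measure on the total space. -/
noncomputable abbrev nu : Measure (X × ℤ) := mu.prod Measure.count

/-- The translation of the total space. -/
def Ps (g : X) (k : ℤ) (p : X × ℤ) : X × ℤ := (p.1 + g, p.2 + k)

lemma mp_Ps (g : X) (k : ℤ) : MeasurePreserving (Ps g k) nu nu :=
  (measurePreserving_add_right mu g).prod (measurePreserving_add_right Measure.count k)

/-- The multiplier. -/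
noncomputable def wt (A : ℕ → ℝ) (g : X) (k : ℤ) (Y : Set X) (p : X × ℤ) : ℂ :=
  Y.indicator (fun y => ((Real.exp (F A (y + g) (p.2 + k) - F A y p.2) : ℝ) : ℂ)) p.1

lemma measurable_wt (A : ℕ → ℝ) (g : X) (k : ℤ) {Y : Set X} (hY : MeasurableSet Y) :
    Measurable (wt A g k Y) := by
  refine measurable_from_prod_countable_left fun n => ?_
  refine Measurable.indicator (f := fun y => ((Real.exp (F A (y + g) (n + k) - F A y n) : ℝ) : ℂ))
    ?_ hY
  refine Complex.measurable_ofReal.comp (Real.measurable_exp.comp ?_)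
  exact ((measurable_F A (n + k)).comp (measurable_add_const g)).sub (measurable_F A n)

lemma norm_wt_le {A : ℕ → ℝ} {g : X} {k : ℤ} {Y : Set X} {C : ℝ}
    (hC : ∀ y ∈ Y, ∀ n, F A (y + g) (n + k) - F A y n ≤ C) (p : X × ℤ) :
    ‖wt A g k Y p‖ ≤ Real.exp C := by
  unfold wt
  by_cases h : p.1 ∈ Y
  · rw [Set.indicator_of_mem h, Complex.norm_real, Real.norm_eq_abs, abs_of_pos (Real.exp_pos _)]
    exact Real.exp_le_exp.2 (hC _ h _)
  · rw [Set.indicator_of_notMem h, norm_zero]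
    exact (Real.exp_pos _).le

/-- `T` is the direct integral of the weighted shifts. -/
def IsT (A : ℕ → ℝ) (T : Lp ℂ 2 nu →L[ℂ] Lp ℂ 2 nu) : Prop :=
  ∀ ξ, T ξ =ᵐ[nu] fun p => wt A 0 (-1) Set.univ p * ξ (Ps 0 (-1) p)

lemma exists_T {A : ℕ → ℝ} (hA : ∀ j, 0 ≤ A j) : ∃ T, IsT A T := by
  refine exists_op (mp_Ps 0 (-1)) (measurable_wt A 0 (-1) MeasurableSet.univ)
    (norm_wt_le (C := 0) fun y _ n => ?_)
  simpa using F_sub_le_two hA (y + 0) y (n + -1) n ∅ fun j _ => by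
    rw [add_zero]; exact st_mono _ (by omega)

lemma wt_comm (A : ℕ → ℝ) (g : X) (k : ℤ) (Y : Set X) (p : X × ℤ) :
    wt A g k Y p * wt A 0 (-1) Set.univ (Ps g k p) =
      wt A 0 (-1) Set.univ p * wt A g k Y (Ps 0 (-1) p) := by
  simp only [wt, Ps, add_zero, Set.indicator_univ]
  by_cases h : p.1 ∈ Y
  · simp only [Set.indicator_of_mem h, ← Complex.ofReal_mul, ← Real.exp_add]
    have : p.2 + -1 + k = p.2 + k + -1 := by ring
    rw [this]
    congr 2
    ring
  · simp [Set.indicator_of_notMem h]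

lemma exists_comm {A : ℕ → ℝ} {T : Lp ℂ 2 nu →L[ℂ] Lp ℂ 2 nu} (hT : IsT A T) (g : X) (k : ℤ)
    {Y : Set X} (hY : MeasurableSet Y) {C : ℝ}
    (hC : ∀ y ∈ Y, ∀ n, F A (y + g) (n + k) - F A y n ≤ C) :
    ∃ S : Lp ℂ 2 nu →L[ℂ] Lp ℂ 2 nu, S * T = T * S ∧
      ∀ ξ, S ξ =ᵐ[nu] fun p => wt A g k Y p * ξ (Ps g k p) := by
  obtain ⟨S, hS⟩ := exists_op (mp_Ps g k) (measurable_wt A g k hY) (norm_wt_le hC)
  refine ⟨S, ?_, hS⟩
  ext1 ξ
  apply Lp.ext
  have h1 := (mp_Ps g k).quasiMeasurePreserving.ae_eq_comp (hT ξ)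
  have h2 := (mp_Ps 0 (-1)).quasiMeasurePreserving.ae_eq_comp (hS ξ)
  filter_upwards [hS (T ξ), hT (S ξ), h1, h2] with p e1 e2 e3 e4
  simp only [Function.comp] at e3 e4
  change (S (T ξ)) p = (T (S ξ)) p
  rw [e1, e2, e3, e4, ← mul_assoc, ← mul_assoc, wt_comm]
  congr 2
  simp only [Ps, add_zero, Prod.mk.injEq, true_and]
  ring

lemma ae_all {P : X × ℤ → Prop} (h : ∀ᵐ p ∂nu, P p) : ∀ᵐ y ∂mu, ∀ n, P (y, n) := by
  filter_upwards [Measure.ae_ae_of_ae_prod h] with y hy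
  exact Measure.ae_count_iff.1 hy

/-- Fibrewise vanishing of an integrable function all of whose cylinder integrals vanish. -/
lemma fibre_zero {φ : X × ℤ → ℂ} (hφ : Integrable φ nu)
    (h0 : ∀ Y : Set X, MeasurableSet Y → ∫ p, Y.indicator (fun _ => (1 : ℂ)) p.1 * φ p ∂nu = 0) :
    ∀ᵐ y ∂mu, HasSum (fun n => φ (y, n)) 0 := by
  have hI : Integrable (fun y => ∫ n, φ (y, n) ∂Measure.count) mu := hφ.integral_prod_left
  have hz := hI.ae_eq_zero_of_forall_setIntegral_eq_zero fun Y hY _ => by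
    have hint : Integrable (fun p : X × ℤ => Y.indicator (fun _ => (1 : ℂ)) p.1 * φ p) nu := by
      refine hφ.bdd_mul (c := 1) ?_ (ae_of_all _ fun p => ?_)
      · exact ((measurable_const.indicator hY).comp measurable_fst).aestronglyMeasurable
      · by_cases h : p.1 ∈ Y <;> simp [h]
    have := h0 Y hY
    rw [integral_prod _ hint] at this
    rw [← integral_indicator hY, ← this]
    refine integral_congr_ae (ae_of_all _ fun y => ?_)
    by_cases h : y ∈ Y <;> simp [h]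
  filter_upwards [hz, hφ.prod_right_ae] with y h1 h2
  have h3 := integral_countable h2
  have h4 : Summable fun n => φ (y, n) := (integrable_count_iff.1 h2).of_norm
  simp only [Pi.zero_apply] at h1
  rw [h1] at h3
  simp only [Measure.real, Measure.count_singleton, ENNReal.toReal_one, one_smul] at h3
  rw [h3]
  exact h4.hasSum

/-- The fibrewise orthogonality principle. -/
lemma orth {A : ℕ → ℝ} {T : Lp ℂ 2 nu →L[ℂ] Lp ℂ 2 nu} (hT : IsT A T)
    {M : Submodule ℂ (Lp ℂ 2 nu)} (hM : ∀ S, S * T = T * S → ∀ v ∈ M, S v ∈ M)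
    {ξ ζ : Lp ℂ 2 nu} (hξ : ξ ∈ M) (hζ : ζ ∈ Mᗮ) (g : X) (k : ℤ) {C : ℝ}
    (hC : ∀ y n, F A (y + g) (n + k) - F A y n ≤ C) :
    ∀ᵐ y ∂mu, HasSum (fun n => conj (ζ (y, n)) *
      (((Real.exp (F A (y + g) (n + k) - F A y n) : ℝ) : ℂ) * ξ (y + g, n + k))) 0 := by
  obtain ⟨S, -, hS⟩ := exists_comm hT g k MeasurableSet.univ fun y _ => hC y
  let φ : X × ℤ → ℂ := fun p => conj (ζ p) * (wt A g k Set.univ p * ξ (Ps g k p))
  have hφ : Integrable φ nu := by
    refine (L2.integrable_inner (𝕜 := ℂ) ζ (S ξ)).congr ?_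
    filter_upwards [hS ξ] with p e
    rw [e, RCLike.inner_apply']
  have := fibre_zero hφ fun Y hY => by
    obtain ⟨S', h1, hS'⟩ := exists_comm hT g k hY fun y _ => hC y
    have h2 : ⟪ζ, S' ξ⟫_ℂ = 0 := Submodule.inner_left_of_mem_orthogonal (hM S' h1 ξ hξ) hζ
    rw [L2.inner_def] at h2
    rw [← h2]
    refine integral_congr_ae ?_
    filter_upwards [hS' ξ] with p e
    rw [e, RCLike.inner_apply']
    by_cases h : p.1 ∈ Y <;> simp [φ, wt, h]
  simpa [φ, wt, Ps] using this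

end Vale.Agent.P131
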